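import Crest.Agent.R56.Fourier

/-! The biased Bonami lemma and Friedgut's junta step. -/

set_option autoImplicit false
set_option linter.unusedSectionVars false
open Finset Function Crest.FinProb

namespace Crest.Agent.R56

variable {ι : Type*} [Fintype ι] [DecidableEq ι] {p : ℝ}

/-- The hypercontractivity constant. -/
noncomputable def kap (p : ℝ) : ℝ := 2 / sg p

section pos
variable (h0 : 0 < p) (h1 : p < 1)
include h0 h1

theorem kap_mul_sg : kap p * sg p = 2 := by
  have := sg_pos h0 h1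
  rw [kap]; field_simp

theorem four_le_kap : 4 ≤ kap p := by
  have h2 := sg_pos h0 h1
  have h3 := sg_sq h0 h1
  rw [kap, le_div_iff₀ h2]
  nlinarith [sq_nonneg (2 * p - 1)]

theorem kap_sq : kap p ^ 2 * (p * (1 - p)) = 4 := by
  rw [← sg_sq h0 h1, ← mul_pow, kap_mul_sg h0 h1]; norm_num

theorem bonami_one (a b : ℝ) :
    p * (a + ph p true * b) ^ 4 + (1 - p) * (a + ph p false * b) ^ 4 ≤
      (a ^ 2 + kap p * b ^ 2) ^ 2 := by
  have h2 := sg_pos h0 h1
  have h3 := sg_sq h0 h1
  have h4 := four_le_kap h0 h1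
  set u := ph p true with hu
  set v := ph p false with hv
  have m1 : p * u + (1 - p) * v = 0 := ph_m1 h0 h1
  have m2 : p * (u * u) + (1 - p) * (v * v) = 1 := ph_m2 h0 h1
  have hk : kap p = 2 * (u - v) := by
    simp only [hu, hv, kap, ph, if_true, Bool.false_eq_true, if_false]; field_simp; ring
  have hu0 : 0 ≤ u := by
    simp only [hu, ph, if_true]; exact div_nonneg (by linarith) h2.le
  have hv0 : v ≤ 0 := by
    simp only [hv, ph, Bool.false_eq_true, if_false]
    exact div_nonpos_of_nonpos_of_nonneg (by linarith) h2.le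
  have huv : u * v = -1 := by linear_combination (u + v) * m1 - m2
  have m3 : p * u ^ 3 + (1 - p) * v ^ 3 = u + v := by
    linear_combination (u + v) * m2 - (u * v) * m1
  have m4 : p * u ^ 4 + (1 - p) * v ^ 4 = (u + v) ^ 2 + 1 := by
    linear_combination (u + v) * m3 - (u * v) * m2 - huv
  have e : p * (a + u * b) ^ 4 + (1 - p) * (a + v * b) ^ 4 =
      a ^ 4 + 6 * a ^ 2 * b ^ 2 + 4 * a * b ^ 3 * (u + v) + b ^ 4 * ((u + v) ^ 2 + 1) := by
    linear_combination 4 * a ^ 3 * b * m1 + 6 * a ^ 2 * b ^ 2 * m2 + 4 * a * b ^ 3 * m3 + b ^ 4 * m4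
  have k2 : kap p ^ 2 = 4 * (u + v) ^ 2 + 16 := by rw [hk]; linear_combination (-16) * huv
  rw [e]
  have c1 : 4 * a * b ^ 3 * (u + v) ≤ 2 * a ^ 2 * b ^ 2 + 2 * b ^ 4 * (u + v) ^ 2 := by
    nlinarith [sq_nonneg (a * b - b ^ 2 * (u + v))]
  have c2 : 8 * (a ^ 2 * b ^ 2) ≤ 2 * kap p * (a ^ 2 * b ^ 2) :=
    mul_le_mul_of_nonneg_right (by linarith) (by positivity)
  have c3 : 0 ≤ b ^ 4 * (u + v) ^ 2 := by positivity
  have c4 : 0 ≤ b ^ 4 := by positivity
  have e2 : (a ^ 2 + kap p * b ^ 2) ^ 2 =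
      a ^ 4 + 2 * kap p * (a ^ 2 * b ^ 2) + (4 * (u + v) ^ 2 + 16) * b ^ 4 := by
    rw [← k2]; ring
  rw [e2]
  nlinarith

theorem bonami_powerset (J : Finset ι) : ∀ g : Finset ι → ℝ,
    ex p (fun x => (∑ S ∈ J.powerset, g S * chi p S x) ^ 4) ≤
      (∑ S ∈ J.powerset, kap p ^ #S * g S ^ 2) ^ 2 := by
  have h4 := four_le_kap h0 h1
  induction J using Finset.induction_on with
  | empty =>
    intro g
    simp only [powerset_empty, sum_singleton, chi, prod_empty, ex_const, card_empty]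
    exact le_of_eq (by ring)
  | insert j J hj ih =>
    intro g
    have hS : ∀ S ∈ J.powerset, j ∉ S := fun S hS h => hj (mem_powerset.1 hS h)
    set A : (ι → Bool) → ℝ := fun x => ∑ S ∈ J.powerset, g S * chi p S x with hA
    set B : (ι → Bool) → ℝ := fun x => ∑ S ∈ J.powerset, g (insert j S) * chi p S x with hB
    set a := ∑ S ∈ J.powerset, kap p ^ #S * g S ^ 2 with ha
    set b := ∑ S ∈ J.powerset, kap p ^ #S * g (insert j S) ^ 2 with hb
    have ha0 : 0 ≤ a := sum_nonneg fun S _ => by positivity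
    have hb0 : 0 ≤ b := sum_nonneg fun S _ => by positivity
    have iA : ex p (fun x => A x ^ 4) ≤ a ^ 2 := ih g
    have iB : ex p (fun x => B x ^ 4) ≤ b ^ 2 := ih fun S => g (insert j S)
    have e1 : ∀ x (c : Bool), ∑ S ∈ (insert j J).powerset, g S * chi p S (update x j c) =
        A x + ph p c * B x := by
      intro x c
      rw [sum_powerset_insert hj, hA, hB, mul_sum]
      congr 1
      · exact sum_congr rfl fun S h => by rw [chi_update (hS S h)]
      · exact sum_congr rfl fun S h => by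
          rw [chi_insert (hS S h), chi_update (hS S h), update_self]; ring
    have e2 : ∑ S ∈ (insert j J).powerset, kap p ^ #S * g S ^ 2 = a + kap p * b := by
      rw [sum_powerset_insert hj, hb, mul_sum]
      congr 1
      exact sum_congr rfl fun S h => by rw [card_insert_of_notMem (hS S h)]; ring
    rw [ex_split j, e2]
    simp only [e1]
    have iAB : ex p (fun x => A x ^ 2 * B x ^ 2) ≤ a * b := by
      have c := ex_cs h0.le h1.le (fun x => A x ^ 2) (fun x => B x ^ 2)
      simp only [← pow_mul] at c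
      refine abs_le_of_sq_le_sq' (c.trans ?_) (mul_nonneg ha0 hb0) |>.2
      rw [mul_pow]
      exact mul_le_mul iA iB (ex_nonneg h0.le h1.le fun x => Even.pow_nonneg (by decide) _)
        (by positivity)
    refine (ex_mono h0.le h1.le fun x => bonami_one h0 h1 (A x) (B x)).trans ?_
    have e3 : ∀ x, (A x ^ 2 + kap p * B x ^ 2) ^ 2 =
        A x ^ 4 + (2 * kap p * (A x ^ 2 * B x ^ 2) + kap p ^ 2 * B x ^ 4) := fun x => by ring
    rw [ex_congr e3, ex_add, ex_add, ex_const_mul, ex_const_mul]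
    have c1 := mul_le_mul_of_nonneg_left iAB (show 0 ≤ 2 * kap p by linarith)
    have c2 := mul_le_mul_of_nonneg_left iB (show 0 ≤ kap p ^ 2 by positivity)
    nlinarith

theorem bonami (𝒜 : Finset (Finset ι)) (g : Finset ι → ℝ) (k : ℕ) (hk : ∀ R ∈ 𝒜, #R ≤ k) :
    ex p (fun x => (∑ R ∈ 𝒜, g R * chi p R x) ^ 4) ≤ kap p ^ (2 * k) * (∑ R ∈ 𝒜, g R ^ 2) ^ 2 := by
  have h4 := four_le_kap h0 h1
  have := bonami_powerset h0 h1 univ fun R => if R ∈ 𝒜 then g R else 0
  simp only [powerset_univ, ite_mul, zero_mul, sum_ite_mem, univ_inter, ite_pow, mul_ite,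
    ne_eq, OfNat.ofNat_ne_zero, not_false_eq_true, zero_pow, mul_zero] at this
  refine this.trans ?_
  rw [mul_comm 2 k, pow_mul, ← mul_pow, mul_sum]
  refine pow_le_pow_left₀ (sum_nonneg fun S _ => by positivity) (sum_le_sum fun R hR => ?_) 2
  exact mul_le_mul_of_nonneg_right (pow_le_pow_right₀ (by linarith) (hk R hR)) (sq_nonneg _)

/-- Level-`k` inequality for functions with values in `{0, 1, -1}`. -/
theorem level_le {g : (ι → Bool) → ℝ} (hg : ∀ x, g x = 0 ∨ g x = 1 ∨ g x = -1) (k : ℕ) {t : ℝ}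
    (ht : 0 < t) : ∑ R ∈ univ.filter (fun R : Finset ι => #R = k), hat p g R ^ 2 ≤
      t * ex p (fun x => g x ^ 2) + kap p ^ (2 * k) * ex p (fun x => g x ^ 2) ^ 2 / t ^ 3 := by
  set 𝒜 := univ.filter (fun R : Finset ι => #R = k) with h𝒜
  set u : (ι → Bool) → ℝ := fun x => ∑ R ∈ 𝒜, hat p g R * chi p R x with hu
  have h4 := four_le_kap h0 h1
  have e1 : ex p (fun x => g x * u x) = ∑ R ∈ 𝒜, hat p g R ^ 2 := by
    rw [hu, ex_syn_mul]; simp only [sq]
  have e2 := bonami h0 h1 𝒜 (hat p g) k fun R hR => (mem_filter.1 hR).2.le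
  have e3 : ∑ R ∈ 𝒜, hat p g R ^ 2 ≤ ex p (fun x => g x ^ 2) := by
    rw [parseval_sq h0 h1]
    exact sum_le_sum_of_subset_of_nonneg (subset_univ _) fun _ _ _ => sq_nonneg _
  have pt : ∀ w : ℝ, w ≤ t + w ^ 4 * (t ^ 3)⁻¹ := by
    intro w
    rcases le_or_gt w t with h | h
    · have : 0 ≤ w ^ 4 * (t ^ 3)⁻¹ := by positivity
      linarith
    · have a1 : t ^ 3 ≤ w ^ 3 := pow_le_pow_left₀ ht.le h.le 3
      have a2 : w ≤ w ^ 4 * (t ^ 3)⁻¹ := by
        rw [← div_eq_mul_inv, le_div_iff₀ (by positivity)]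
        nlinarith
      linarith
  have e4 : ∀ x, g x * u x ≤ t * g x ^ 2 + u x ^ 4 * (t ^ 3)⁻¹ := by
    intro x
    rcases hg x with h | h | h <;> rw [h]
    · have : 0 ≤ u x ^ 4 * (t ^ 3)⁻¹ := by positivity
      linarith
    · have := pt (u x); linarith
    · have := pt (-u x)
      rw [show (-u x) ^ 4 = u x ^ 4 by ring] at this
      linarith
  have e5 := ex_mono h0.le h1.le e4
  rw [e1, ex_add, ex_const_mul, ex_mul_const] at e5
  refine e5.trans (add_le_add le_rfl ?_)
  rw [div_eq_mul_inv]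
  refine mul_le_mul_of_nonneg_right (e2.trans ?_) (by positivity)
  exact mul_le_mul_of_nonneg_left
    (pow_le_pow_left₀ (sum_nonneg fun _ _ => sq_nonneg _) e3 2) (by positivity)

/-- Friedgut's step: the small coefficients of a given level have small total weight. -/
theorem friedgut {h : (ι → Bool) → ℝ} (hh : ∀ x, h x = 0 ∨ h x = 1) {m : ℕ} (hm : 1 ≤ m)
    {ε β : ℝ} (hε : 0 < ε) (hβ : 0 ≤ β)
    (hM : β * (kap p ^ (2 * m) / (p * (1 - p) * ε ^ 5)) ^ m ≤ 1) :
    ∑ T ∈ univ.filter (fun T : Finset ι => #T = m),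
      (if hat p h T ^ 2 < β then hat p h T ^ 2 else 0) ≤ 3 * ε * infl p h := by
  have h4 := four_le_kap h0 h1
  have hl : 0 < p * (1 - p) := mul_pos h0 (by linarith)
  set M := kap p ^ (2 * m) / (p * (1 - p) * ε ^ 5) with hMdef
  have hM0 : 0 < M := by positivity
  set τ := ε ^ 4 / kap p ^ (2 * m) with hτ
  have hτ0 : 0 < τ := by positivity
  set π : ι → ℝ := fun j => ex p fun x => Dd j h x ^ 2 with hπ
  have hπ0 : ∀ j, 0 ≤ π j := fun j => ex_nonneg h0.le h1.le fun x => sq_nonneg _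
  set H := univ.filter fun j => τ ≤ π j with hH
  have hI : infl p h = ∑ j, p * (1 - p) * π j := rfl
  have hHI : (#H : ℝ) / M ≤ ε * infl p h := by
    have a1 : ∑ _j ∈ H, p * (1 - p) * τ ≤ infl p h := by
      rw [hI]
      refine (sum_le_sum fun j hj => mul_le_mul_of_nonneg_left (mem_filter.1 hj).2 hl.le).trans ?_
      exact sum_le_sum_of_subset_of_nonneg (subset_univ _) fun j _ _ => mul_nonneg hl.le (hπ0 j)
    rw [sum_const, nsmul_eq_mul] at a1
    refine le_trans (le_of_eq ?_) (mul_le_mul_of_nonneg_left a1 hε.le)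
    rw [hMdef, hτ]; field_simp
  have hlow : ∀ j, j ∉ H → ∑ T : Finset ι, (if j ∈ T then (if #T = m then 1 else 0) *
      hat p h T ^ 2 else 0) ≤ 2 * ε * (p * (1 - p) * π j) := by
    intro j hj
    have hj' : π j < τ := by simpa [hH] using hj
    rw [sum_mem_hat h0 h1 h j fun k => if k = m then 1 else 0]
    have hD : ∀ x, Dd j h x = 0 ∨ Dd j h x = 1 ∨ Dd j h x = -1 := by
      intro x
      rcases hh (update x j true) with a | a <;> rcases hh (update x j false) with b | b <;>
        simp [Dd, a, b]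
    have a1 := level_le h0 h1 hD (m - 1) hε
    have a2 : ∑ R : Finset ι, (if #R + 1 = m then (1 : ℝ) else 0) * hat p (Dd j h) R ^ 2 =
        ∑ R ∈ univ.filter (fun R : Finset ι => #R = m - 1), hat p (Dd j h) R ^ 2 := by
      rw [sum_filter]
      refine sum_congr rfl fun R _ => ?_
      have : (#R + 1 = m) ↔ (#R = m - 1) := by omega
      simp [this]
    rw [a2]
    have a3 : kap p ^ (2 * (m - 1)) * π j ^ 2 / ε ^ 3 ≤ ε * π j := by
      rw [div_le_iff₀ (by positivity)]
      have b1 : kap p ^ (2 * (m - 1)) ≤ kap p ^ (2 * m) :=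
        pow_le_pow_right₀ (by linarith) (by omega)
      have b2 : π j * kap p ^ (2 * m) ≤ ε ^ 4 := (le_div_iff₀ (by positivity)).1 hj'.le
      calc kap p ^ (2 * (m - 1)) * π j ^ 2 ≤ kap p ^ (2 * m) * π j ^ 2 := by gcongr
        _ = π j * (π j * kap p ^ (2 * m)) := by ring
        _ ≤ π j * ε ^ 4 := mul_le_mul_of_nonneg_left b2 (hπ0 j)
        _ = _ := by ring
    have a4 : ∑ R ∈ univ.filter (fun R : Finset ι => #R = m - 1), hat p (Dd j h) R ^ 2 ≤
        2 * ε * π j := by
      have : ex p (fun x => Dd j h x ^ 2) = π j := rfl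
      rw [this] at a1; linarith
    calc _ ≤ p * (1 - p) * (2 * ε * π j) := mul_le_mul_of_nonneg_left a4 hl.le
      _ = _ := by ring
  have hhigh : ∑ T ∈ H.powersetCard m, (if hat p h T ^ 2 < β then hat p h T ^ 2 else 0) ≤
      ε * infl p h := by
    refine le_trans ?_ hHI
    rcases le_or_gt (#H : ℝ) M with hc | hc
    · have a1 : ∑ T ∈ H.powersetCard m, (if hat p h T ^ 2 < β then hat p h T ^ 2 else 0) ≤
          ∑ _T ∈ H.powersetCard m, β := sum_le_sum fun T _ => by split_ifs with h <;> linarith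
      rw [sum_const, card_powersetCard, nsmul_eq_mul] at a1
      have a2 : ((#H).choose m : ℝ) ≤ (#H : ℝ) ^ m := by exact_mod_cast Nat.choose_le_pow _ _
      obtain ⟨k, rfl⟩ : ∃ k, m = k + 1 := ⟨m - 1, by omega⟩
      have a3 : (#H : ℝ) ^ k ≤ M ^ k := pow_le_pow_left₀ (by positivity) hc k
      refine a1.trans ?_
      rw [le_div_iff₀ hM0]
      calc ((#H).choose (k + 1) : ℝ) * β * M ≤ (#H : ℝ) ^ (k + 1) * β * M := by gcongr
        _ = (#H : ℝ) ^ k * (#H * β * M) := by ring
        _ ≤ M ^ k * (#H * β * M) := by gcongr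
        _ = #H * (β * M ^ (k + 1)) := by ring
        _ ≤ #H := mul_le_of_le_one_right (by positivity) hM
    · have a1 : ∑ T ∈ H.powersetCard m, (if hat p h T ^ 2 < β then hat p h T ^ 2 else 0) ≤
          ∑ T : Finset ι, hat p h T ^ 2 :=
        (sum_le_sum fun T _ => by split_ifs with h; exacts [le_rfl, sq_nonneg _]).trans
          (sum_le_sum_of_subset_of_nonneg (subset_univ _) fun _ _ _ => sq_nonneg _)
      rw [← parseval_sq h0 h1] at a1
      have a2 : ex p (fun x => h x ^ 2) ≤ 1 := by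
        rw [← ex_const (p := p) (ι := ι) 1]
        exact ex_mono h0.le h1.le fun x => by rcases hh x with a | a <;> simp [a]
      exact (a1.trans a2).trans ((one_le_div hM0).2 hc.le)
  have hsplit : ∑ T ∈ univ.filter (fun T : Finset ι => #T = m),
      (if hat p h T ^ 2 < β then hat p h T ^ 2 else 0) ≤
      ∑ T ∈ H.powersetCard m, (if hat p h T ^ 2 < β then hat p h T ^ 2 else 0) +
      ∑ j ∈ Hᶜ, ∑ T : Finset ι, (if j ∈ T then (if #T = m then 1 else 0) *
        hat p h T ^ 2 else 0) := by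
    rw [sum_comm, sum_filter, ← univ_inter (H.powersetCard m), ← sum_ite_mem, ← sum_add_distrib]
    refine sum_le_sum fun T _ => ?_
    have n1 : ∀ j ∈ Hᶜ, (0 : ℝ) ≤ if j ∈ T then (if #T = m then 1 else 0) * hat p h T ^ 2 else 0 :=
      fun j _ => by positivity
    by_cases hT : #T = m
    · by_cases hTH : T ⊆ H
      · rw [if_pos hT, if_pos (mem_powersetCard.2 ⟨hTH, hT⟩)]
        exact le_add_of_nonneg_right (sum_nonneg n1)
      · obtain ⟨j, hj1, hj2⟩ := not_subset.1 hTH
        have := single_le_sum n1 (mem_compl.2 hj2)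
        refine le_trans ?_ (add_le_add le_rfl this)
        rw [if_pos hT, if_pos hT, if_pos hj1, one_mul,
          if_neg fun h : T ∈ H.powersetCard m => hTH (mem_powersetCard.1 h).1, zero_add]
        split_ifs; exacts [le_rfl, sq_nonneg _]
    · rw [if_neg hT, if_neg fun h => hT (mem_powersetCard.1 h).2, zero_add]
      exact sum_nonneg n1
  have hlow2 : ∑ j ∈ Hᶜ, ∑ T : Finset ι, (if j ∈ T then (if #T = m then 1 else 0) *
      hat p h T ^ 2 else 0) ≤ 2 * ε * infl p h := by
    rw [hI, mul_sum]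
    refine (sum_le_sum fun j hj => hlow j (mem_compl.1 hj)).trans ?_
    exact sum_le_sum_of_subset_of_nonneg (subset_univ _) fun j _ _ => by
      have := hπ0 j; positivity
  linarith

end pos

end Crest.Agent.R56
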