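import Crest.Agent.R56.Count

/-! The variance–influence inequality for symmetric hypergraph properties. -/

set_option autoImplicit false
set_option linter.unusedSectionVars false
open Finset Function Crest.FinProb Real

namespace Crest.Agent.R56

theorem numeric {κ D d L lam : ℝ} {r s m n : ℕ} (hκ : 4 ≤ κ) (hl : κ ^ 2 * lam = 4) (hD : 1 ≤ D)
    (hd0 : 0 < d) (hd : d ≤ D ^ 2) (hr : 1 ≤ r) (hm : 1 ≤ m) (hs : (s : ℝ) ≤ 2 * r * D * m)
    (hmD : (m : ℝ) ≤ 2 * D) (hn : (n : ℝ) = exp L) (hL : 64 * r * κ * D ≤ L) :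
    4 * κ ^ (2 * s) * (2 ^ s * ((r * m : ℕ) / n : ℝ) ^ m) *
      (κ ^ (2 * m) / (lam * (exp (-(2 * m)) / (8 * d ^ 2)) ^ 5)) ^ m ≤
      (exp (-(2 * m)) / (8 * d ^ 2)) ^ 3 := by
  have hκ0 : 0 < κ := by linarith
  have hlam : 0 < lam := by
    by_contra h
    push Not at h
    nlinarith [mul_nonneg (sq_nonneg κ) (neg_nonneg.2 h)]
  have ee : ∀ x : ℝ, x ≤ exp x := fun x => by linarith [add_one_le_exp x]
  have e2 : (2 : ℝ) ≤ exp 1 := by linarith [add_one_le_exp 1]
  set ε := exp (-(2 * m)) / (8 * d ^ 2) with hε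
  have hε0 : 0 < ε := by positivity
  have b1 : ε⁻¹ ≤ exp (11 * D) := by
    have c1 : (8 : ℝ) ≤ exp (3 * D) := by
      calc (8 : ℝ) = 2 ^ 3 := by norm_num
        _ ≤ exp 1 ^ 3 := by gcongr
        _ = exp 3 := by rw [← exp_nat_mul]; norm_num
        _ ≤ exp (3 * D) := by gcongr; linarith
    have c2 : d ^ 2 ≤ exp (4 * D) := by
      calc d ^ 2 ≤ (D ^ 2) ^ 2 := by gcongr
        _ = D ^ 4 := by ring
        _ ≤ exp D ^ 4 := by gcongr; exact ee D
        _ = exp (4 * D) := by rw [← exp_nat_mul]; norm_num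
    rw [hε, inv_div, exp_neg, div_inv_eq_mul]
    have c3 : exp (2 * m) ≤ exp (4 * D) := exp_le_exp.2 (by linarith)
    calc 8 * d ^ 2 * exp (2 * m) ≤ exp (3 * D) * exp (4 * D) * exp (4 * D) := by
          gcongr
      _ = exp (11 * D) := by rw [← exp_add, ← exp_add]; ring_nf
  have b2 : lam⁻¹ ≤ exp (2 * κ) := by
    have : lam⁻¹ = κ ^ 2 / 4 := by field_simp; linarith
    rw [this]
    calc κ ^ 2 / 4 ≤ κ ^ 2 := by nlinarith [sq_nonneg κ]
      _ ≤ exp κ ^ 2 := by gcongr; exact ee κ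
      _ = exp (2 * κ) := by rw [← exp_nat_mul]; norm_num
  have b3 : (4 : ℝ) ≤ exp 2 := by
    calc (4 : ℝ) = 2 ^ 2 := by norm_num
      _ ≤ exp 1 ^ 2 := by gcongr
      _ = exp 2 := by rw [← exp_nat_mul]; norm_num
  have b4 : ((r * m : ℕ) / n : ℝ) ≤ exp (r * m - L) := by
    rw [hn, exp_sub]; push_cast; gcongr; exact ee _
  rw [← div_le_one (by positivity), div_eq_mul_inv _ (ε ^ 3), div_eq_mul_inv (κ ^ (2 * m)),
    mul_inv, ← inv_pow, ← inv_pow]
  have hεi : 0 ≤ ε⁻¹ := by positivity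
  calc 4 * κ ^ (2 * s) * (2 ^ s * ((r * m : ℕ) / n : ℝ) ^ m) *
        (κ ^ (2 * m) * (lam⁻¹ * ε⁻¹ ^ 5)) ^ m * ε⁻¹ ^ 3
      ≤ exp 2 * exp κ ^ (2 * s) * (exp 1 ^ s * exp (r * m - L) ^ m) *
        (exp κ ^ (2 * m) * (exp (2 * κ) * exp (11 * D) ^ 5)) ^ m * exp (11 * D) ^ 3 := by
        gcongr <;> exact ee κ
    _ ≤ 1 := by
        simp only [← exp_nat_mul, ← exp_add]
        rw [exp_le_one_iff]
        push_cast
        have hr' : (1 : ℝ) ≤ r := by exact_mod_cast hr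
        have hm' : (1 : ℝ) ≤ m := by exact_mod_cast hm
        set K := κ * D with hK
        have k1 : κ ≤ K := le_mul_of_one_le_right hκ0.le hD
        have k2 : 4 * D ≤ K := by rw [hK]; gcongr
        have k3 : K ≤ K * m := le_mul_of_one_le_right (by linarith) hm'
        have k4 : K * m ≤ K * m * r := le_mul_of_one_le_right (by linarith) hr'
        have t1 : s * κ ≤ 2 * (K * m * r) := by
          calc s * κ ≤ 2 * r * D * m * κ := by gcongr
            _ = _ := by rw [hK]; ring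
        have t2 : 4 * (D * m) ≤ K * m := by nlinarith
        have t3 : 4 * (D * m * r) ≤ K * m * r := by nlinarith
        have t4 : (m : ℝ) * (r * m) ≤ 2 * (D * m * r) := by
          calc (m : ℝ) * (r * m) ≤ 2 * D * (r * m) := by gcongr
            _ = _ := by ring
        have t5 : 64 * (K * m * r) ≤ m * L := by
          calc 64 * (K * m * r) = m * (64 * r * κ * D) := by rw [hK]; ring
            _ ≤ m * L := by gcongr
        have t6 : m * (m * κ) ≤ 2 * (K * m) := by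
          calc m * (m * κ) ≤ m * (2 * D * κ) := by gcongr
            _ = _ := by rw [hK]; ring
        have t7 : m * κ ≤ K * m := by nlinarith
        nlinarith

theorem root_lemma {r : ℕ} (hr : 2 ≤ r) {x l y : ℝ} (hx0 : 0 ≤ x) (hx1 : x ≤ 1) (hl : 0 < l)
    (hy : 1 ≤ y) (hyx : y ≤ x ^ 2 * l ^ r) :
    ∃ t : ℝ, 1 ≤ t ∧ t ^ r = y ∧ t ^ (r - 1) ≤ x * l ^ (r - 1) := by
  set t := y ^ (r : ℝ)⁻¹ with ht
  have h1 : t ^ r = y := Real.rpow_inv_natCast_pow (by linarith) (by omega)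
  have h2 : 1 ≤ t := Real.one_le_rpow hy (by positivity)
  refine ⟨t, h2, h1, ?_⟩
  have h3 : (t / l) ^ r ≤ x ^ 2 := by rw [div_pow, div_le_iff₀ (by positivity), h1]; exact hyx
  have h4 : t / l ≤ 1 :=
    (pow_le_one_iff_of_nonneg (by positivity) (by omega)).1 (h3.trans (pow_le_one₀ hx0 hx1))
  have h5 : ((t / l) ^ (r - 1)) ^ 2 ≤ x ^ 2 := by
    rw [← pow_mul]
    exact (pow_le_pow_of_le_one (by positivity) h4 (by omega)).trans h3
  have h6 := (abs_le_of_sq_le_sq' h5 hx0).2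
  rwa [div_pow, div_le_iff₀ (by positivity)] at h6

theorem prob_lower {m s q g : ℕ} (hm : 1 ≤ m) (hms : m ≤ s) (hq : 2 * q ≤ s)
    (hg : (s - q) ^ m ≤ m.factorial * g) :
    exp (-(2 * m)) ≤ g * (((m : ℝ) / s) ^ m * (1 - (m : ℝ) / s) ^ (s - m)) := by
  have hs0 : (0 : ℝ) < s := by exact_mod_cast (show 0 < s by omega)
  have hm0 : (0 : ℝ) < m := by exact_mod_cast (show 0 < m by omega)
  have a1 : exp (-m) ≤ g * ((m : ℝ) / s) ^ m := by
    have b1 : ((s : ℝ) / 2) ^ m ≤ m ^ m * g := by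
      have c1 : (s : ℝ) / 2 ≤ ((s - q : ℕ) : ℝ) := by
        rw [Nat.cast_sub (by omega)]
        have : (2 * q : ℝ) ≤ s := by exact_mod_cast hq
        linarith
      have c2 : (s - q) ^ m ≤ m ^ m * g := hg.trans (Nat.mul_le_mul_right _ (Nat.factorial_le_pow m))
      exact (pow_le_pow_left₀ (by positivity) c1 m).trans (by exact_mod_cast c2)
    have b2 : exp (-1) ≤ (1 : ℝ) / 2 := by
      rw [exp_neg, one_div]
      exact inv_anti₀ (by norm_num) (by linarith [add_one_le_exp 1])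
    calc exp (-m) = exp (-1) ^ m := by rw [← exp_nat_mul]; ring_nf
      _ ≤ (1 / 2) ^ m := by gcongr
      _ = ((s : ℝ) / 2) ^ m / s ^ m := by rw [← div_pow]; congr 1; field_simp
      _ ≤ m ^ m * g / s ^ m := by gcongr
      _ = _ := by rw [div_pow]; ring
  have a2 : exp (-m) ≤ (1 - (m : ℝ) / s) ^ (s - m) := by
    rcases eq_or_lt_of_le hms with rfl | hlt
    · simp
    · obtain ⟨k, rfl⟩ : ∃ k, s = m + k := ⟨s - m, by omega⟩
      have hk : (0 : ℝ) < k := by exact_mod_cast (show 0 < k by omega)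
      rw [Nat.add_sub_cancel_left]
      have b1 : exp (-(m / k)) ≤ 1 - (m : ℝ) / (m + k : ℕ) := by
        have : 1 - (m : ℝ) / (m + k : ℕ) = ((m : ℝ) / k + 1)⁻¹ := by push_cast; field_simp; ring
        rw [this, exp_neg]
        exact inv_anti₀ (by positivity) (add_one_le_exp _)
      calc exp (-m) = exp (-(m / k)) ^ k := by rw [← exp_nat_mul]; congr 1; field_simp
        _ ≤ _ := by gcongr
  calc exp (-(2 * m)) = exp (-m) * exp (-m) := by rw [← exp_add]; ring_nf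
    _ ≤ (g * ((m : ℝ) / s) ^ m) * (1 - (m : ℝ) / s) ^ (s - m) := by gcongr
    _ = _ := by ring

variable {ι : Type*} [Fintype ι] [DecidableEq ι] {p : ℝ} {n r : ℕ}

theorem level_bound (h0 : 0 < p) (h1 : p < 1) {V : ι → Finset (Fin n)} (hV : Injective V)
    (hc : ∀ e, #(V e) = r) (hr : 2 ≤ r) (hn : 1 ≤ n)
    {f : (ι → Bool) → ℝ} (hf : ∀ x, f x = 0 ∨ f x = 1)
    (hsym : ∀ σ : Equiv.Perm (Fin n), ∃ τ : ι → ι, (∀ e, V (τ e) = (V e).map σ.toEmbedding) ∧
      ∀ x, f (x ∘ τ) = f x) {D d t : ℝ} {s : ℕ} (hd0 : 0 < d) (hd : d ≤ D ^ 2) (ht : 1 ≤ t)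
    (hts : t ^ r = s) (htD : t ^ (r - 1) ≤ D) (hL : 64 * r * kap p * D ≤ log n) :
    d ^ 2 * ∑ S ∈ univ.filter (fun S : Finset ι => #S = s), hat p f S ^ 2 ≤ infl p f := by
  have hr' : (2 : ℝ) ≤ r := by exact_mod_cast hr
  have hn' : (0 : ℝ) < n := by exact_mod_cast hn
  have t1 : t ≤ D := (le_self_pow₀ ht (by omega)).trans htD
  have t2 : t ≤ s := hts ▸ le_self_pow₀ ht (by omega)
  set k := ⌊t / (2 * r)⌋₊ with hk
  have k1 : (k : ℝ) ≤ t / (2 * r) := Nat.floor_le (by positivity)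
  have k2 : t / (2 * r) < k + 1 := Nat.lt_floor_add_one _
  rw [le_div_iff₀ (by positivity)] at k1
  rw [div_lt_iff₀ (by positivity)] at k2
  have k3 : 4 * (k : ℝ) ≤ t := by nlinarith [(Nat.cast_nonneg k : (0 : ℝ) ≤ k)]
  have hms : k + 1 ≤ s := by
    have : (k : ℝ) < s := by linarith
    exact_mod_cast this
  have hs0 : (0 : ℝ) < s := by linarith
  have hq : 2 * (r * (k + 1 - 1)).choose r ≤ s := by
    rw [Nat.add_sub_cancel]
    have a1 : ((r * k).choose r : ℝ) ≤ ((r * k : ℕ) : ℝ) ^ r := by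
      exact_mod_cast Nat.choose_le_pow _ _
    have a2 : ((r * k : ℕ) : ℝ) ^ r ≤ (t / 2) ^ r :=
      pow_le_pow_left₀ (by positivity) (by push_cast; linarith) r
    have a3 : (2 : ℝ) ≤ 2 ^ r := le_self_pow₀ (by norm_num) (by omega)
    rw [div_pow, hts] at a2
    have a4 : (s : ℝ) / 2 ^ r ≤ s / 2 := div_le_div_of_nonneg_left hs0.le (by norm_num) a3
    have : (2 : ℝ) * (r * k).choose r ≤ s := by linarith
    exact_mod_cast this
  have hs : (s : ℝ) ≤ 2 * r * D * (k + 1 : ℕ) := by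
    have : t ^ r = t * t ^ (r - 1) := by rw [← pow_succ']; congr 1; omega
    rw [← hts, this]
    push_cast
    calc t * t ^ (r - 1) ≤ ((k + 1) * (2 * r)) * D :=
          mul_le_mul k2.le htD (by positivity) (by positivity)
      _ = _ := by ring
  have hmD : ((k + 1 : ℕ) : ℝ) ≤ 2 * D := by push_cast; linarith
  have hnum := numeric (four_le_kap h0 h1) (kap_sq h0 h1) (ht.trans t1) hd0 hd (by omega)
    (Nat.le_add_left 1 k) hs hmD (exp_log hn').symm hL
  have main := level_weight_le h0 h1 hf (s := s) (Nat.le_add_left 1 k) (good V (k + 1))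
    (fun T hT => (mem_filter.1 hT).2.1) (by positivity) (fun T hT => ?_) hnum
    (ρ := ((k + 1 : ℕ) : ℝ) / s) (P := exp (-(2 * (k + 1 : ℕ)))) (by positivity)
    ((div_le_one hs0).2 (by exact_mod_cast hms)) fun S hS =>
      prob_lower (Nat.le_add_left 1 k) hms hq (hS ▸ count_good hV hc S (k + 1) (k + 1) le_rfl)
  · have e : 8 * (exp (-(2 * (k + 1 : ℕ))) / (8 * d ^ 2)) * infl p f =
        exp (-(2 * (k + 1 : ℕ))) * (infl p f / d ^ 2) := by field_simp
    rw [e] at main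
    have := le_of_mul_le_mul_left main (exp_pos _)
    rwa [le_div_iff₀' (by positivity)] at this
  · obtain ⟨hT1, hT2⟩ := (mem_filter.1 hT).2
    have a1 := sym_bound h0 h1 hV hf hsym s T
    have a2 := pow_le_choose_of_le (n := n) (w := r * (k + 1)) (Nat.le_add_left 1 k) hT2
      ((card_biUnion_le_card_mul T V r fun e _ => (hc e).le).trans (by rw [hT1, mul_comm]))
      ((card_le_univ _).trans (by simp))
    have a3 := (mul_le_mul_of_nonneg_right a2 (sum_nonneg fun _ _ => sq_nonneg _)).trans a1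
    have a4 : (0 : ℝ) < (r * (k + 1) : ℕ) := by positivity
    rw [← inv_div, inv_pow, ← div_eq_mul_inv, le_div_iff₀' (by positivity)]
    exact a3

theorem core (h0 : 0 < p) (h1 : p < 1) {V : ι → Finset (Fin n)} (hV : Injective V)
    (hc : ∀ e, #(V e) = r) (hr : 2 ≤ r) (hn : 2 ≤ n)
    {f : (ι → Bool) → ℝ} (hf : ∀ x, f x = 0 ∨ f x = 1)
    (hsym : ∀ σ : Equiv.Perm (Fin n), ∃ τ : ι → ι, (∀ e, V (τ e) = (V e).map σ.toEmbedding) ∧
      ∀ x, f (x ∘ τ) = f x) :
    ex p f * (1 - ex p f) ≤ 2 * (128 * r) ^ 2 / log n ^ ((r : ℝ) / ((r : ℝ) - 1)) *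
      ∑ j, ex p fun x => Dd j f x ^ 2 := by
  have hr' : (2 : ℝ) ≤ r := by exact_mod_cast hr
  have hL : 0 < log n := log_pos (by exact_mod_cast hn)
  have hσ := sg_pos h0 h1
  have hσ2 := sg_sq h0 h1
  have hκ := kap_mul_sg h0 h1
  have hκ4 := four_le_kap h0 h1
  set L := log n with hLdef
  set l := L ^ ((r : ℝ) - 1)⁻¹ with hl
  have hl0 : 0 < l := rpow_pos_of_pos hL _
  have l1 : l ^ (r - 1) = L := by
    rw [hl, ← Nat.cast_one (R := ℝ), ← Nat.cast_sub (by omega)]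
    exact Real.rpow_inv_natCast_pow hL.le (by omega)
  have l2 : l ^ r = L ^ ((r : ℝ) / ((r : ℝ) - 1)) := by
    rw [hl, ← rpow_natCast, ← rpow_mul hL.le]; congr 1; ring
  set x := sg p / (128 * r) with hx
  have hx0 : 0 < x := by positivity
  have hx1 : x ≤ 1 := by rw [hx, div_le_one (by positivity)]; nlinarith
  set d := x ^ 2 * l ^ r with hd
  have hd0 : 0 < d := by positivity
  have hI : infl p f = sg p ^ 2 * ∑ j, ex p fun x => Dd j f x ^ 2 := by
    rw [infl, ← mul_sum, hσ2]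
  have hvar : ex p f * (1 - ex p f) = ∑ S : Finset ι, if S = ∅ then 0 else hat p f S ^ 2 := by
    have a1 : ex p f = ∑ S : Finset ι, hat p f S ^ 2 := by
      rw [← parseval_sq h0 h1]
      exact ex_congr fun x => by rcases hf x with a | a <;> simp [a]
    have a2 : ∀ S : Finset ι, (if S = ∅ then 0 else hat p f S ^ 2) =
        hat p f S ^ 2 - if S = ∅ then hat p f S ^ 2 else 0 := fun S => by split_ifs <;> ring
    simp only [a2, sum_sub_distrib, sum_ite_eq', mem_univ, if_true]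
    rw [← a1, hat_empty]; ring
  suffices H : d * (ex p f * (1 - ex p f)) ≤ 2 * infl p f by
    rw [← l2, div_mul_eq_mul_div, le_div_iff₀ (by positivity)]
    refine le_of_mul_le_mul_left ?_ (show 0 < x ^ 2 by positivity)
    calc x ^ 2 * (ex p f * (1 - ex p f) * l ^ r) = d * (ex p f * (1 - ex p f)) := by
          rw [hd]; ring
      _ ≤ 2 * infl p f := H
      _ = _ := by rw [hI, hx]; field_simp
  have hI0 := infl_nonneg h0 h1 f
  have hlev : ∀ s ∈ Icc 1 ⌊d⌋₊,
      d ^ 2 * ∑ S ∈ univ.filter (fun S : Finset ι => #S = s), hat p f S ^ 2 ≤ infl p f := by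
    intro s hs
    obtain ⟨s1, s2⟩ := mem_Icc.1 hs
    have s1' : (1 : ℝ) ≤ s := by exact_mod_cast s1
    have s2' : (s : ℝ) ≤ d := (Nat.le_floor_iff hd0.le).1 s2
    obtain ⟨t, t1, t2, t3⟩ := root_lemma hr hx0.le hx1 hl0 s1' s2'
    obtain ⟨u, u1, u2, u3⟩ := root_lemma hr hx0.le hx1 hl0 (s1'.trans s2') le_rfl
    rw [l1] at t3 u3
    refine level_bound h0 h1 hV hc hr (by omega) hf hsym (D := x * L) hd0 ?_ t1 t2 t3
      (le_of_eq ?_)
    · calc d = u ^ r := u2.symm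
        _ ≤ u ^ ((r - 1) * 2) := pow_le_pow_right₀ u1 (by omega)
        _ ≤ (x * L) ^ 2 := by rw [pow_mul]; gcongr
    · rw [hx, ← hLdef]; field_simp; linear_combination 64 * hκ
  have hsum : d * ∑ s ∈ Icc 1 ⌊d⌋₊, ∑ S ∈ univ.filter (fun S : Finset ι => #S = s),
      hat p f S ^ 2 ≤ infl p f := by
    have a1 := sum_le_sum hlev
    rw [← mul_sum, sum_const, Nat.card_Icc, Nat.add_sub_cancel, nsmul_eq_mul] at a1
    have a2 : (⌊d⌋₊ : ℝ) * infl p f ≤ d * infl p f :=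
      mul_le_mul_of_nonneg_right (Nat.floor_le hd0.le) hI0
    refine le_of_mul_le_mul_left ?_ hd0
    rw [← mul_assoc, ← sq]; exact a1.trans a2
  rw [sum_fiberwise_eq_sum_filter, sum_filter, mul_sum] at hsum
  have hI2 := infl_eq h0 h1 f
  rw [hvar, mul_sum, two_mul]
  refine le_trans ?_ (add_le_add hsum hI2.ge)
  rw [← sum_add_distrib]
  refine sum_le_sum fun S _ => ?_
  have n1 : 0 ≤ #S * hat p f S ^ 2 := by positivity
  have n2 : 0 ≤ d * hat p f S ^ 2 := by positivity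
  split_ifs with c1 c2 c3
  · linarith
  · linarith
  · linarith
  · have : d ≤ #S := by
      rw [mem_Icc, not_and_or] at c3
      rcases c3 with c3 | c3
      · exact absurd (card_pos.2 (nonempty_iff_ne_empty.2 c1)) c3
      · exact (Nat.lt_of_floor_lt (not_le.1 c3)).le
    rw [mul_zero, zero_add]
    exact mul_le_mul_of_nonneg_right this (sq_nonneg _)

end Crest.Agent.R56
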