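import Crest.Agent.R56.Restrict

/-! Counting spread-out sub-hypergraphs, and the consequence of vertex symmetry. -/

set_option autoImplicit false
set_option linter.unusedSectionVars false
open Finset Function Crest.FinProb

namespace Crest.Agent.R56

variable {ι : Type*} [Fintype ι] [DecidableEq ι] {p : ℝ} {n r : ℕ}

/-- Sets of `m` slots that cover at least `m` vertices. -/
def good (V : ι → Finset (Fin n)) (m : ℕ) : Finset (Finset ι) :=
  univ.filter fun T => #T = m ∧ m ≤ #(T.biUnion V)

theorem count_good {V : ι → Finset (Fin n)} (hV : Injective V) (hc : ∀ e, #(V e) = r)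
    (S : Finset ι) (m : ℕ) : ∀ k, k ≤ m →
      (#S - (r * (m - 1)).choose r) ^ k ≤ k.factorial * #((good V k).filter (· ⊆ S)) := by
  intro k
  induction k with
  | zero =>
    intro _
    rw [pow_zero, Nat.factorial_zero, one_mul]
    exact card_pos.2 ⟨∅, by simp [good]⟩
  | succ k ih =>
    intro hk
    have h1 := card_mul_le_card_mul (s := (good V k).filter (· ⊆ S))
      (t := (good V (k + 1)).filter (· ⊆ S)) (m := #S - (r * (m - 1)).choose r) (n := k + 1)
      (fun T T' => T ⊆ T') ?_ ?_
    · calc _ = (#S - (r * (m - 1)).choose r) ^ k * (#S - (r * (m - 1)).choose r) := pow_succ _ _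
        _ ≤ k.factorial * #((good V k).filter (· ⊆ S)) * (#S - (r * (m - 1)).choose r) :=
          Nat.mul_le_mul_right _ (ih (by omega))
        _ ≤ k.factorial * (#((good V (k + 1)).filter (· ⊆ S)) * (k + 1)) := by
          rw [mul_assoc]; exact Nat.mul_le_mul_left _ h1
        _ = _ := by rw [Nat.factorial_succ]; ring
    · intro T hT
      simp only [good, mem_filter, mem_univ, true_and] at hT
      obtain ⟨⟨hT1, hT2⟩, hT3⟩ := hT
      set U := T.biUnion V with hU
      have a1 : #(S.filter fun e => V e ⊆ U) ≤ (r * (m - 1)).choose r := by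
        have b1 : #(S.filter fun e => V e ⊆ U) ≤ #(U.powersetCard r) :=
          card_le_card_of_injOn V (fun e he => by
            simp only [coe_filter, Set.mem_ofPred_eq] at he
            exact mem_coe.2 (mem_powersetCard.2 ⟨he.2, hc e⟩)) hV.injOn
        rw [card_powersetCard] at b1
        refine b1.trans (Nat.choose_le_choose _ ?_)
        refine (card_biUnion_le_card_mul T V r fun e _ => (hc e).le).trans ?_
        rw [hT1, mul_comm]; exact Nat.mul_le_mul_left _ (by omega)
      have a2 := card_filter_add_card_filter_not (s := S) fun e => V e ⊆ U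
      have a3 : ∀ e ∈ S.filter (fun e => ¬ V e ⊆ U), e ∉ T := fun e he h =>
        (mem_filter.1 he).2 (subset_biUnion_of_mem V h)
      have a4 : #(S.filter fun e => ¬ V e ⊆ U) ≤
          #(((good V (k + 1)).filter (· ⊆ S)).bipartiteAbove (fun T T' => T ⊆ T') T) := by
        refine card_le_card_of_injOn (fun e => insert e T) (fun e he => ?_) fun e he e' _ h => ?_
        · have he' := mem_coe.1 he
          simp only [mem_coe, mem_bipartiteAbove, good, mem_filter, mem_univ, true_and]
          refine ⟨⟨⟨by rw [card_insert_of_notMem (a3 e he'), hT1], ?_⟩,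
            insert_subset (mem_filter.1 he').1 hT3⟩, subset_insert _ _⟩
          rw [biUnion_insert]
          refine Nat.succ_le_of_lt (hT2.trans_lt (card_lt_card ⟨subset_union_right, fun h => ?_⟩))
          exact (mem_filter.1 he').2 (subset_union_left.trans h)
        · have : e ∈ insert e' T := by
            have h' : insert e T = insert e' T := h
            rw [← h']; exact mem_insert_self _ _
          exact (mem_insert.1 this).resolve_right (a3 e (mem_coe.1 he))
      omega
    · intro T' hT'
      simp only [good, mem_filter, mem_univ, true_and] at hT'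
      have : #(((good V k).filter (· ⊆ S)).bipartiteBelow (fun T T' => T ⊆ T') T') ≤
          #(T'.powersetCard k) := by
        refine card_le_card fun T hT => ?_
        simp only [mem_bipartiteBelow, good, mem_filter, mem_univ, true_and] at hT
        exact mem_powersetCard.2 ⟨hT.2, hT.1.1.1⟩
      rwa [card_powersetCard, hT'.1.1, Nat.choose_succ_self_right] at this

theorem pow_le_choose_real : ∀ v n : ℕ, v ≤ n → ((n : ℝ) / v) ^ v ≤ n.choose v
  | 0, n, _ => by simp
  | v + 1, 0, h => by omega
  | v + 1, n + 1, h => by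
    have ih := pow_le_choose_real v n (by omega)
    have e : ((n + 1).choose (v + 1) : ℝ) = ((n + 1 : ℕ) : ℝ) / (v + 1 : ℕ) * n.choose v := by
      have := Nat.add_one_mul_choose_eq n v
      rw [div_mul_eq_mul_div, eq_div_iff (by positivity)]
      exact_mod_cast this.symm
    rw [e, pow_succ']
    refine mul_le_mul_of_nonneg_left (le_trans ?_ ih) (by positivity)
    rcases Nat.eq_zero_or_pos v with rfl | hv
    · simp
    · refine pow_le_pow_left₀ (by positivity) ?_ v
      have hv' : (0 : ℝ) < v := by exact_mod_cast hv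
      have hvn : (v : ℝ) ≤ n := by exact_mod_cast (show v ≤ n by omega)
      rw [div_le_div_iff₀ (by positivity) hv']
      push_cast
      nlinarith

theorem pow_le_choose_of_le {m v w n : ℕ} (hm : 1 ≤ m) (h1 : m ≤ v) (h2 : v ≤ w) (h3 : v ≤ n) :
    ((n : ℝ) / w) ^ m ≤ n.choose v := by
  have hv : (0 : ℝ) < v := by exact_mod_cast (show 0 < v by omega)
  have a1 : (n : ℝ) / w ≤ n / v := div_le_div_of_nonneg_left (by positivity) hv (by exact_mod_cast h2)
  have a2 : (1 : ℝ) ≤ n / v := (one_le_div hv).2 (by exact_mod_cast h3)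
  exact (pow_le_pow_left₀ (by positivity) a1 m).trans
    ((pow_le_pow_right₀ a2 h1).trans (pow_le_choose_real v n h3))

theorem sym_bound (h0 : 0 < p) (h1 : p < 1) {V : ι → Finset (Fin n)} (hV : Injective V)
    {f : (ι → Bool) → ℝ} (hf : ∀ x, f x = 0 ∨ f x = 1)
    (hsym : ∀ σ : Equiv.Perm (Fin n), ∃ π : ι → ι, (∀ e, V (π e) = (V e).map σ.toEmbedding) ∧
      ∀ x, f (x ∘ π) = f x) (s : ℕ) (T : Finset ι) :
    (n.choose #(T.biUnion V) : ℝ) *
      ∑ S ∈ univ.filter (fun S : Finset ι => #S = s ∧ T ⊆ S), hat p f S ^ 2 ≤ 2 ^ s := by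
  set A : Finset ι → ℝ := fun T =>
    ∑ S ∈ univ.filter (fun S : Finset ι => #S = s ∧ T ⊆ S), hat p f S ^ 2 with hA
  have hA0 : ∀ T, 0 ≤ A T := fun T => sum_nonneg fun _ _ => sq_nonneg _
  have key : ∀ B : Finset (Fin n), ∃ T' : Finset ι, #B = #(T.biUnion V) →
      T'.biUnion V = B ∧ A T' = A T := by
    intro B
    by_cases hB : #B = #(T.biUnion V)
    swap
    · exact ⟨∅, fun h => absurd h hB⟩
    obtain ⟨σ, hσ⟩ := Equiv.Perm.exists_map_finset_eq _ _ hB.symm
    obtain ⟨π, hπ1, hπ2⟩ := hsym σ
    have hinj : Injective π := fun e e' h => by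
      have := hπ1 e
      rw [h, hπ1 e'] at this
      exact hV (map_injective _ this).symm
    set π' : Equiv.Perm ι := Equiv.ofBijective π (Finite.injective_iff_bijective.1 hinj) with hπ'
    refine ⟨T.map π'.toEmbedding, fun _ => ⟨?_, ?_⟩⟩
    · rw [← hσ]
      ext a
      simp only [mem_biUnion, mem_map, Equiv.coe_toEmbedding]
      constructor
      · rintro ⟨_, ⟨e, he, rfl⟩, h⟩
        have h' : a ∈ V (π e) := h
        rw [hπ1, mem_map] at h'
        obtain ⟨b, hb, rfl⟩ := h'
        exact ⟨b, ⟨e, he, hb⟩, rfl⟩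
      · rintro ⟨b, ⟨e, he, hb⟩, rfl⟩
        refine ⟨_, ⟨e, he, rfl⟩, ?_⟩
        change σ b ∈ V (π e)
        rw [hπ1]; exact mem_map_of_mem _ hb
    · simp only [hA, sum_filter]
      rw [← Equiv.sum_comp π'.finsetCongr]
      refine sum_congr rfl fun S _ => ?_
      rw [Equiv.finsetCongr_apply, hat_map π' hπ2, card_map]
      simp only [map_subset_map]
  choose τ hτ using key
  set 𝓑 := (univ : Finset (Fin n)).powersetCard #(T.biUnion V) with h𝓑
  have hB : ∀ B ∈ 𝓑, #B = #(T.biUnion V) := fun B h => (mem_powersetCard.1 h).2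
  have a1 : (n.choose #(T.biUnion V) : ℝ) * A T = ∑ T' ∈ 𝓑.image τ, A T' := by
    rw [sum_image fun B h B' h' e => by rw [← (hτ B (hB B h)).1, ← (hτ B' (hB B' h')).1, e],
      sum_congr rfl fun B h => (hτ B (hB B h)).2, sum_const, card_powersetCard, card_univ,
      Fintype.card_fin, nsmul_eq_mul]
  have a2 : ∑ T' : Finset ι, A T' ≤ 2 ^ s * ∑ S : Finset ι, hat p f S ^ 2 := by
    simp only [hA, sum_filter]
    rw [sum_comm, mul_sum]
    refine sum_le_sum fun S _ => ?_
    by_cases hs : #S = s
    · simp only [hs, true_and, ← mem_powerset]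
      rw [sum_ite_mem, univ_inter, sum_const, card_powerset, hs, nsmul_eq_mul]
      simp
    · simp only [hs, false_and, if_false, sum_const_zero]; positivity
  have a3 : ∑ S : Finset ι, hat p f S ^ 2 ≤ 1 := by
    rw [← parseval_sq h0 h1, ← ex_const (p := p) (ι := ι) 1]
    exact ex_mono h0.le h1.le fun x => by rcases hf x with a | a <;> simp [a]
  change _ * A T ≤ _
  rw [a1]
  refine (sum_le_sum_of_subset_of_nonneg (subset_univ _) fun T _ _ => hA0 T).trans (a2.trans ?_)
  exact mul_le_of_le_one_right (by positivity) a3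

end Crest.Agent.R56
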