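import Mathlib
import Crest.Prelude.Def_FinProb

/-! `p`-biased Fourier analysis on the discrete cube. -/

set_option autoImplicit false
set_option linter.unusedSectionVars false
open Finset Function Crest.FinProb

namespace Crest.Agent.R56

variable {ι : Type*} [Fintype ι] [DecidableEq ι]

/-- Expectation under independent coins of bias `p`. -/
noncomputable def ex (p : ℝ) (F : (ι → Bool) → ℝ) : ℝ := ∑ x, bernoulliWeight p x * F x

/-- Standard deviation of one coin. -/
noncomputable def sg (p : ℝ) : ℝ := √(p * (1 - p))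

/-- The normalised coin. -/
noncomputable def ph (p : ℝ) (b : Bool) : ℝ := ((if b then 1 else 0) - p) / sg p

/-- The biased characters. -/
noncomputable def chi (p : ℝ) (S : Finset ι) (x : ι → Bool) : ℝ := ∏ i ∈ S, ph p (x i)

/-- Fourier coefficients. -/
noncomputable def hat (p : ℝ) (f : (ι → Bool) → ℝ) (S : Finset ι) : ℝ :=
  ex p fun x => f x * chi p S x

/-- Discrete derivative. -/
def Dd (j : ι) (f : (ι → Bool) → ℝ) (x : ι → Bool) : ℝ :=
  f (update x j true) - f (update x j false)

/-- Total influence, normalised so that it is `∑ |S| f̂(S)²`. -/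
noncomputable def infl (p : ℝ) (f : (ι → Bool) → ℝ) : ℝ :=
  ∑ j, p * (1 - p) * ex p fun x => Dd j f x ^ 2

variable {p : ℝ}

theorem bw_nonneg (h0 : 0 ≤ p) (h1 : p ≤ 1) (x : ι → Bool) : 0 ≤ bernoulliWeight p x :=
  prod_nonneg fun i _ => by split_ifs <;> linarith

theorem ex_congr {F G : (ι → Bool) → ℝ} (h : ∀ x, F x = G x) : ex p F = ex p G := by
  rw [funext h]

theorem ex_add (F G : (ι → Bool) → ℝ) : ex p (fun x => F x + G x) = ex p F + ex p G := by
  simp only [ex, mul_add, sum_add_distrib]

theorem ex_sub (F G : (ι → Bool) → ℝ) : ex p (fun x => F x - G x) = ex p F - ex p G := by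
  simp only [ex, mul_sub, sum_sub_distrib]

theorem ex_const_mul (c : ℝ) (F : (ι → Bool) → ℝ) : ex p (fun x => c * F x) = c * ex p F := by
  simp only [ex, mul_sum]; exact sum_congr rfl fun x _ => by ring

theorem ex_mul_const (c : ℝ) (F : (ι → Bool) → ℝ) : ex p (fun x => F x * c) = ex p F * c := by
  simp only [ex, sum_mul]; exact sum_congr rfl fun x _ => by ring

theorem ex_sum {κ : Type*} (s : Finset κ) (F : κ → (ι → Bool) → ℝ) :
    ex p (fun x => ∑ k ∈ s, F k x) = ∑ k ∈ s, ex p (F k) := by
  simp only [ex, mul_sum]; exact sum_comm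

theorem ex_mono (h0 : 0 ≤ p) (h1 : p ≤ 1) {F G : (ι → Bool) → ℝ} (h : ∀ x, F x ≤ G x) :
    ex p F ≤ ex p G :=
  sum_le_sum fun x _ => mul_le_mul_of_nonneg_left (h x) (bw_nonneg h0 h1 x)

theorem ex_nonneg (h0 : 0 ≤ p) (h1 : p ≤ 1) {F : (ι → Bool) → ℝ} (h : ∀ x, 0 ≤ F x) :
    0 ≤ ex p F :=
  sum_nonneg fun x _ => mul_nonneg (bw_nonneg h0 h1 x) (h x)

theorem ex_prod (g : ι → Bool → ℝ) :
    ex p (fun x => ∏ i, g i (x i)) = ∏ i, (p * g i true + (1 - p) * g i false) := by
  have := prod_univ_sum (fun _ : ι => (univ : Finset Bool))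
    (fun i b => (if b then p else 1 - p) * g i b)
  rw [Fintype.piFinset_univ] at this
  simp only [ex, bernoulliWeight, ← prod_mul_distrib]
  rw [← this]
  simp

theorem ex_const (c : ℝ) : ex p (fun _ : ι → Bool => c) = c := by
  have := ex_prod (p := p) (ι := ι) fun _ _ => 1
  simp only [prod_const_one, mul_one, add_sub_cancel] at this
  rw [← mul_one c, ex_const_mul, this]

theorem ex_prod_mem (S : Finset ι) (g : ι → Bool → ℝ) :
    ex p (fun x => ∏ i ∈ S, g i (x i)) = ∏ i ∈ S, (p * g i true + (1 - p) * g i false) := by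
  have := ex_prod (p := p) fun i b => if i ∈ S then g i b else 1
  simp only [prod_ite_mem, univ_inter] at this
  rw [this, ← univ_inter S, ← prod_ite_mem, univ_inter]
  refine prod_congr rfl fun i _ => ?_
  split_ifs <;> ring

theorem ex_coord (j : ι) (g : Bool → ℝ) :
    ex p (fun x : ι → Bool => g (x j)) = p * g true + (1 - p) * g false := by
  simpa using ex_prod_mem (p := p) {j} fun _ => g

/-- Tower property. -/
theorem ex_piecewise (J : Finset ι) (F : (ι → Bool) → ℝ) :
    ex p (fun z => ex p fun y => F (J.piecewise y z)) = ex p F := by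
  let Φ : (ι → Bool) × (ι → Bool) → (ι → Bool) × (ι → Bool) :=
    fun a => (J.piecewise a.2 a.1, J.piecewise a.1 a.2)
  have hΦ : Involutive Φ := by
    rintro ⟨a, b⟩
    ext i <;> by_cases hi : i ∈ J <;> simp [Φ, hi]
  have hw : ∀ a : (ι → Bool) × (ι → Bool), bernoulliWeight p a.1 * bernoulliWeight p a.2 =
      bernoulliWeight p (Φ a).1 * bernoulliWeight p (Φ a).2 := by
    rintro ⟨a, b⟩
    simp only [bernoulliWeight, ← prod_mul_distrib]
    refine prod_congr rfl fun i _ => ?_
    by_cases hi : i ∈ J <;> simp [Φ, hi, mul_comm]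
  have h1 := Equiv.sum_comp hΦ.toPerm
    (fun a => bernoulliWeight p a.1 * bernoulliWeight p a.2 * F a.1)
  have h2 : ex p F = ex p fun z => ex p fun _ : ι → Bool => F z := ex_congr fun z => (ex_const _).symm
  rw [h2]
  simp only [ex, mul_sum, ← mul_assoc]
  rw [← Fintype.sum_prod_type', ← Fintype.sum_prod_type', ← h1]
  refine sum_congr rfl fun a _ => ?_
  rw [hw a]; rfl

/-- Splitting off one coordinate. -/
theorem ex_split (j : ι) (F : (ι → Bool) → ℝ) :
    ex p F = ex p fun x => p * F (update x j true) + (1 - p) * F (update x j false) := by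
  rw [← ex_piecewise {j} F]
  refine ex_congr fun z => ?_
  rw [← ex_coord j fun b => F (update z j b)]
  refine ex_congr fun y => ?_
  rw [piecewise_singleton]

theorem ex_cs (h0 : 0 ≤ p) (h1 : p ≤ 1) (F G : (ι → Bool) → ℝ) :
    ex p (fun x => F x * G x) ^ 2 ≤ ex p (fun x => F x ^ 2) * ex p (fun x => G x ^ 2) :=
  sum_sq_le_sum_mul_sum_of_sq_le_mul _
    (fun x _ => mul_nonneg (bw_nonneg h0 h1 x) (sq_nonneg _))
    (fun x _ => mul_nonneg (bw_nonneg h0 h1 x) (sq_nonneg _)) fun x _ => le_of_eq (by ring)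

theorem ex_comp_perm (π : Equiv.Perm ι) (F : (ι → Bool) → ℝ) :
    ex p (fun x => F (x ∘ π)) = ex p F := by
  have := Equiv.sum_comp (Equiv.arrowCongr π.symm (Equiv.refl Bool))
    (fun x => bernoulliWeight p x * F x)
  rw [ex, ex, ← this]
  refine sum_congr rfl fun x _ => ?_
  have e : (Equiv.arrowCongr π.symm (Equiv.refl Bool)) x = x ∘ π := by ext i; simp
  rw [e]
  congr 1
  exact (Equiv.prod_comp π fun i => if x i then p else 1 - p).symm

section pos
variable (h0 : 0 < p) (h1 : p < 1)
include h0 h1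

theorem sg_pos : 0 < sg p := Real.sqrt_pos.2 (mul_pos h0 (by linarith))

theorem sg_sq : sg p ^ 2 = p * (1 - p) := Real.sq_sqrt (mul_pos h0 (by linarith)).le

theorem ph_m1 : p * ph p true + (1 - p) * ph p false = 0 := by
  simp only [ph, if_true, Bool.false_eq_true, if_false]; ring

theorem ph_m2 : p * (ph p true * ph p true) + (1 - p) * (ph p false * ph p false) = 1 := by
  have h2 := sg_pos h0 h1
  have h3 := sg_sq h0 h1
  simp only [ph, if_true, Bool.false_eq_true, if_false]
  field_simp
  rw [h3]; ring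

theorem ex_chi_mul (S T : Finset ι) :
    ex p (fun x => chi p S x * chi p T x) = if S = T then 1 else 0 := by
  have e : ∀ x : ι → Bool, chi p S x * chi p T x =
      ∏ i, (if i ∈ S then ph p (x i) else 1) * (if i ∈ T then ph p (x i) else 1) := by
    intro x
    rw [prod_mul_distrib, prod_ite_mem, prod_ite_mem, univ_inter, univ_inter]; rfl
  rw [ex_congr e, ex_prod fun i b => (if i ∈ S then ph p b else 1) * (if i ∈ T then ph p b else 1)]
  have m1 := ph_m1 h0 h1
  have m2 := ph_m2 h0 h1
  split_ifs with h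
  · subst h
    refine prod_eq_one fun i _ => ?_
    split_ifs
    · exact m2
    · ring
  · obtain ⟨i, hi⟩ : ∃ i, ¬ (i ∈ S ↔ i ∈ T) := by
      by_contra hc
      push Not at hc
      exact h (Finset.ext hc)
    refine prod_eq_zero (mem_univ i) ?_
    by_cases h2 : i ∈ S <;> by_cases h3 : i ∈ T <;> simp_all

theorem kernel (x y : ι → Bool) :
    bernoulliWeight p y * ∑ S : Finset ι, chi p S y * chi p S x = if y = x then 1 else 0 := by
  have e : ∑ S : Finset ι, chi p S y * chi p S x = ∏ i, (1 + ph p (y i) * ph p (x i)) := by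
    rw [prod_one_add, powerset_univ]
    exact sum_congr rfl fun S _ => by rw [prod_mul_distrib]; rfl
  have h2 := sg_pos h0 h1
  have h3 := sg_sq h0 h1
  have k : ∀ a b : Bool, (if a then p else 1 - p) * (1 + ph p a * ph p b) =
      if a = b then 1 else 0 := by
    intro a b
    cases a <;> cases b <;> simp only [ph, if_true, Bool.false_eq_true, if_false,
      Bool.true_eq_false] <;> field_simp <;> rw [h3] <;> ring
  rw [e, bernoulliWeight, ← prod_mul_distrib]
  simp only [k]
  rw [prod_boole]
  simp [funext_iff]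

/-- Fourier inversion. -/
theorem fourier (f : (ι → Bool) → ℝ) (x : ι → Bool) :
    f x = ∑ S : Finset ι, hat p f S * chi p S x := by
  simp only [hat, ex, sum_mul]
  rw [sum_comm]
  have : ∀ y, ∑ S : Finset ι, bernoulliWeight p y * (f y * chi p S y) * chi p S x =
      f y * if y = x then 1 else 0 := by
    intro y
    rw [← kernel h0 h1 x y, mul_sum, mul_sum]
    exact sum_congr rfl fun S _ => by ring
  simp [this]

theorem parseval (f g : (ι → Bool) → ℝ) :
    ex p (fun x => f x * g x) = ∑ S : Finset ι, hat p f S * hat p g S := by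
  have : ∀ x, f x * g x = ∑ S : Finset ι, hat p f S * (g x * chi p S x) := by
    intro x
    conv_lhs => rw [fourier h0 h1 f x]
    rw [sum_mul]
    exact sum_congr rfl fun S _ => by ring
  rw [ex_congr this, ex_sum]
  exact sum_congr rfl fun S _ => ex_const_mul _ _

theorem parseval_sq (f : (ι → Bool) → ℝ) :
    ex p (fun x => f x ^ 2) = ∑ S : Finset ι, hat p f S ^ 2 := by
  simp only [sq]; exact parseval h0 h1 f f

omit h0 h1 in
theorem chi_update {j : ι} {R : Finset ι} (hj : j ∉ R) (x : ι → Bool) (b : Bool) :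
    chi p R (update x j b) = chi p R x :=
  prod_congr rfl fun i hi => by rw [update_of_ne (by rintro rfl; exact hj hi)]

omit h0 h1 in
theorem chi_insert {j : ι} {R : Finset ι} (hj : j ∉ R) (x : ι → Bool) :
    chi p (insert j R) x = ph p (x j) * chi p R x := prod_insert hj

omit h0 h1 [Fintype ι] in
theorem Dd_update (j : ι) (f : (ι → Bool) → ℝ) (x : ι → Bool) (b : Bool) :
    Dd j f (update x j b) = Dd j f x := by simp [Dd]

theorem hat_insert (f : (ι → Bool) → ℝ) {j : ι} {R : Finset ι} (hj : j ∉ R) :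
    hat p f (insert j R) = sg p * hat p (Dd j f) R := by
  have h2 := sg_pos h0 h1
  have h3 := sg_sq h0 h1
  rw [hat, hat, ex_split j, ← ex_const_mul]
  refine ex_congr fun x => ?_
  simp only [chi_insert hj, chi_update hj, update_self, ph, Dd, if_true, Bool.false_eq_true,
    if_false]
  field_simp
  rw [h3]; ring

theorem hat_Dd_mem (f : (ι → Bool) → ℝ) {j : ι} {R : Finset ι} (hj : j ∈ R) :
    hat p (Dd j f) R = 0 := by
  rw [hat, ex_split j, ← ex_const (p := p) (ι := ι) 0]
  refine ex_congr fun x => ?_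
  have hj' : j ∉ R.erase j := notMem_erase j R
  rw [← insert_erase hj]
  simp only [chi_insert hj', chi_update hj', update_self, Dd_update]
  linear_combination (Dd j f x * chi p (R.erase j) x) * ph_m1 h0 h1

theorem sum_mem_hat (f : (ι → Bool) → ℝ) (j : ι) (c : ℕ → ℝ) :
    ∑ S : Finset ι, (if j ∈ S then c #S * hat p f S ^ 2 else 0) =
      p * (1 - p) * ∑ R : Finset ι, c (#R + 1) * hat p (Dd j f) R ^ 2 := by
  rw [← sum_filter, mul_sum, ← sum_filter_add_sum_filter_not univ (fun R => j ∈ R)]
  rw [sum_eq_zero (s := filter (fun R => j ∈ R) univ)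
    (f := fun R => p * (1 - p) * (c (#R + 1) * hat p (Dd j f) R ^ 2))
    (fun R hR => by rw [hat_Dd_mem h0 h1 f (mem_filter.1 hR).2]; ring), zero_add]
  symm
  refine sum_bij' (fun R _ => insert j R) (fun S _ => S.erase j) ?_ ?_ ?_ ?_ ?_
  · intro R _; simp
  · intro S _; simp
  · intro R hR; exact erase_insert (mem_filter.1 hR).2
  · intro S hS; exact insert_erase (mem_filter.1 hS).2
  · intro R hR
    have hj := (mem_filter.1 hR).2
    rw [hat_insert h0 h1 f hj, card_insert_of_notMem hj, mul_pow, sg_sq h0 h1]; ring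

theorem infl_eq (f : (ι → Bool) → ℝ) : infl p f = ∑ S : Finset ι, #S * hat p f S ^ 2 := by
  have : ∀ j, p * (1 - p) * ex p (fun x => Dd j f x ^ 2) =
      ∑ S : Finset ι, if j ∈ S then hat p f S ^ 2 else 0 := by
    intro j
    have := sum_mem_hat h0 h1 f j fun _ => 1
    simp only [one_mul] at this
    rw [this, parseval_sq h0 h1]
  simp only [infl, this]
  rw [sum_comm]
  refine sum_congr rfl fun S _ => ?_
  rw [sum_ite_mem, univ_inter, sum_const, nsmul_eq_mul]

theorem infl_nonneg (f : (ι → Bool) → ℝ) : 0 ≤ infl p f := by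
  rw [infl_eq h0 h1]; positivity

omit h0 h1 in
theorem ex_syn_mul (𝒜 : Finset (Finset ι)) (a : Finset ι → ℝ) (g : (ι → Bool) → ℝ) :
    ex p (fun x => g x * ∑ R ∈ 𝒜, a R * chi p R x) = ∑ R ∈ 𝒜, a R * hat p g R := by
  simp only [mul_sum]
  rw [ex_sum]
  refine sum_congr rfl fun R _ => ?_
  rw [hat, ← ex_const_mul]
  exact ex_congr fun x => by ring

end pos

theorem hat_empty (f : (ι → Bool) → ℝ) : hat p f ∅ = ex p f := by simp [hat, chi]

theorem hat_map {f : (ι → Bool) → ℝ} (π : Equiv.Perm ι) (hf : ∀ x, f (x ∘ π) = f x)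
    (S : Finset ι) : hat p f (S.map π.toEmbedding) = hat p f S := by
  rw [hat, hat, ← ex_comp_perm π fun x => f x * chi p S x]
  refine ex_congr fun x => ?_
  rw [hf]
  simp [chi]

end Crest.Agent.R56
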