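import Crest.Agent.R56.Bonami

/-! Random restrictions: the level-`s` weight of a function with spread-out spectrum. -/

set_option autoImplicit false
set_option linter.unusedSectionVars false
open Finset Function Crest.FinProb

namespace Crest.Agent.R56

variable {ι : Type*} [Fintype ι] [DecidableEq ι] {p : ℝ}

theorem chi_piecewise (J S : Finset ι) (y z : ι → Bool) :
    chi p S (J.piecewise y z) = chi p (S ∩ J) y * chi p (S \ J) z := by
  rw [chi, ← prod_inter_mul_prod_sdiff S J, chi, chi]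
  congr 1
  · exact prod_congr rfl fun i hi => by rw [piecewise_eq_of_mem _ _ _ (mem_inter.1 hi).2]
  · exact prod_congr rfl fun i hi => by rw [piecewise_eq_of_notMem _ _ _ (mem_sdiff.1 hi).2]

theorem point_ineq (c a : ℝ) {θ β : ℝ} (hθ : 0 < θ) (hβ : 0 < β) :
    c * a ≤ (if c ^ 2 < β then c ^ 2 else 0) + (1 / 4 * a ^ 2 + (θ * c ^ 2 +
      (θ ^ 3 * β)⁻¹ * a ^ 4)) := by
  have n1 : 0 ≤ θ * c ^ 2 := by positivity
  have n2 : 0 ≤ (θ ^ 3 * β)⁻¹ * a ^ 4 := by positivity
  split_ifs with h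
  · nlinarith [sq_nonneg (c - a / 2)]
  · push Not at h
    have n3 : c * a ≤ |c| * |a| := by rw [← abs_mul]; exact le_abs_self _
    have n4 : 0 ≤ 1 / 4 * a ^ 2 := by positivity
    rcases le_or_gt |a| (θ * |c|) with h2 | h2
    · have : |c| * |a| ≤ θ * c ^ 2 := by
        rw [← sq_abs c]; nlinarith [abs_nonneg c]
      linarith
    · have a1 : θ * (|c| * |a|) ≤ a ^ 2 := by
        rw [← sq_abs a]; nlinarith [abs_nonneg a]
      have a2 : θ ^ 2 * β ≤ a ^ 2 := by
        have : (θ * |c|) ^ 2 ≤ |a| ^ 2 := pow_le_pow_left₀ (by positivity) h2.le 2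
        rw [mul_pow, sq_abs, sq_abs] at this
        nlinarith [sq_nonneg θ]
      have a3 : |c| * |a| ≤ (θ ^ 3 * β)⁻¹ * a ^ 4 := by
        rw [le_inv_mul_iff₀ (by positivity)]
        calc θ ^ 3 * β * (|c| * |a|) = (θ ^ 2 * β) * (θ * (|c| * |a|)) := by ring
          _ ≤ a ^ 2 * a ^ 2 := mul_le_mul a2 a1 (by positivity) (by positivity)
          _ = a ^ 4 := by ring
      linarith

section pos
variable (h0 : 0 < p) (h1 : p < 1)
include h0 h1

theorem ex_syn_sq (𝒜 : Finset (Finset ι)) (g : Finset ι → ℝ) :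
    ex p (fun x => (∑ R ∈ 𝒜, g R * chi p R x) ^ 2) = ∑ R ∈ 𝒜, g R ^ 2 := by
  simp only [sq]
  rw [ex_syn_mul]
  refine sum_congr rfl fun R hR => ?_
  congr 1
  simp only [hat, sum_mul, mul_assoc]
  rw [ex_sum]
  simp only [ex_const_mul, ex_chi_mul h0 h1]
  simp [hR]

theorem ex_infl_restrict (J : Finset ι) (f : (ι → Bool) → ℝ) :
    ex p (fun z => infl p fun y => f (J.piecewise y z)) ≤ infl p f := by
  have hl : 0 < p * (1 - p) := mul_pos h0 (by linarith)
  simp only [infl]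
  rw [ex_sum]
  refine sum_le_sum fun j _ => ?_
  rw [ex_const_mul, ← ex_piecewise J fun x => Dd j f x ^ 2]
  refine mul_le_mul_of_nonneg_left (ex_mono h0.le h1.le fun z => ex_mono h0.le h1.le fun y => ?_)
    hl.le
  by_cases hj : j ∈ J
  · simp only [Dd, update_piecewise_of_mem _ _ _ hj, le_refl]
  · have : ∀ b, J.piecewise (update y j b) z = J.piecewise y z := fun b =>
      piecewise_congr _ (fun i hi => update_of_ne (by rintro rfl; exact hj hi) _ _) fun _ _ => rfl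
    simp only [Dd, this, sub_self]
    rw [zero_pow two_ne_zero]; positivity

theorem restrict_le {f : (ι → Bool) → ℝ} (hf : ∀ x, f x = 0 ∨ f x = 1) (J : Finset ι) {s m : ℕ}
    (hm : 1 ≤ m) (𝒢 : Finset (Finset ι)) (h𝒢 : ∀ T ∈ 𝒢, #T = m) {ε α : ℝ} (hε : 0 < ε)
    (hα : ∀ T ∈ 𝒢, ∑ S ∈ univ.filter (fun S : Finset ι => #S = s ∧ T ⊆ S), hat p f S ^ 2 ≤ α)
    (hnum : 4 * kap p ^ (2 * s) * α * (kap p ^ (2 * m) / (p * (1 - p) * ε ^ 5)) ^ m ≤ ε ^ 3) :
    ∑ S ∈ (univ.filter fun S : Finset ι => #S = s).filter (fun S => S ∩ J ∈ 𝒢), hat p f S ^ 2 ≤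
      8 * ε * infl p f := by
  have h4 := four_le_kap h0 h1
  have hl : 0 < p * (1 - p) := mul_pos h0 (by linarith)
  set M := kap p ^ (2 * m) / (p * (1 - p) * ε ^ 5) with hMdef
  have hM0 : 0 < M := by positivity
  set β := (M ^ m)⁻¹ with hβ
  have hβ0 : 0 < β := by positivity
  set c : Finset ι → (ι → Bool) → ℝ := fun T z => hat p (fun y => f (J.piecewise y z)) T with hc
  have key : ∀ T ∈ 𝒢, ∑ S ∈ (univ.filter fun S : Finset ι => #S = s).filter (fun S => S ∩ J = T),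
      hat p f S ^ 2 ≤ 2 * (ex p (fun z => if c T z ^ 2 < β then c T z ^ 2 else 0) +
        ε * ex p fun z => c T z ^ 2) := by
    intro T hT
    set 𝒮 := (univ.filter fun S : Finset ι => #S = s).filter (fun S => S ∩ J = T) with h𝒮
    have hS : ∀ S ∈ 𝒮, #S = s ∧ S ∩ J = T := fun S hS => by simpa [h𝒮] using hS
    have hU : ∀ S ∈ 𝒮, T ∪ S \ J = S := fun S h => by
      rw [← (hS S h).2, union_comm, sdiff_union_inter]
    have hinj : Set.InjOn (fun S => S \ J) (𝒮 : Set (Finset ι)) := fun S h S' h' e => by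
      rw [← hU S h, ← hU S' h']; exact congrArg (T ∪ ·) e
    set N := ∑ S ∈ 𝒮, hat p f S ^ 2 with hN
    set 𝒜 := 𝒮.image fun S => S \ J with h𝒜
    set a : (ι → Bool) → ℝ := fun z => ∑ R ∈ 𝒜, hat p f (T ∪ R) * chi p R z with ha
    have hNA : ∑ R ∈ 𝒜, hat p f (T ∪ R) ^ 2 = N := by
      rw [h𝒜, sum_image hinj]
      exact sum_congr rfl fun S h => by rw [hU S h]
    have e1 : ex p (fun z => c T z * a z) = N := by
      rw [ha, ex_syn_mul, h𝒜, sum_image hinj]
      refine sum_congr rfl fun S h => ?_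
      rw [hU S h, sq]
      congr 1
      rw [hat, hat, ← ex_piecewise J fun x => f x * chi p S x]
      refine ex_congr fun z => ?_
      rw [hc]
      simp only [hat]
      rw [← ex_mul_const]
      refine ex_congr fun y => ?_
      rw [chi_piecewise, (hS S h).2]; ring
    have e2 : ex p (fun z => a z ^ 2) = N := by rw [ha, ex_syn_sq h0 h1, hNA]
    have e3 : ex p (fun z => a z ^ 4) ≤ kap p ^ (2 * s) * N ^ 2 := by
      rw [← hNA]
      refine bonami h0 h1 𝒜 _ s fun R hR => ?_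
      obtain ⟨S, h, rfl⟩ := mem_image.1 hR
      rw [← (hS S h).1]; exact card_le_card sdiff_subset
    have hN0 : 0 ≤ N := sum_nonneg fun _ _ => sq_nonneg _
    have e4 : N ≤ α := by
      refine le_trans (sum_le_sum_of_subset_of_nonneg (fun S h => ?_) fun _ _ _ => sq_nonneg _)
        (hα T hT)
      rw [mem_filter]
      exact ⟨mem_univ _, (hS S h).1, by rw [← (hS S h).2]; exact inter_subset_left⟩
    have e5 := ex_mono h0.le h1.le fun z => point_ineq (c T z) (a z) hε hβ0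
    rw [e1, ex_add, ex_add, ex_add, ex_const_mul, ex_const_mul, ex_const_mul, e2] at e5
    have e6 : (ε ^ 3 * β)⁻¹ * ex p (fun z => a z ^ 4) ≤ 1 / 4 * N := by
      rw [inv_mul_le_iff₀ (by positivity)]
      refine e3.trans ?_
      have b1 : 4 * kap p ^ (2 * s) * α ≤ ε ^ 3 * β := by
        rw [hβ, ← div_eq_mul_inv, le_div_iff₀ (by positivity)]; exact hnum
      calc kap p ^ (2 * s) * N ^ 2 = (4 * kap p ^ (2 * s) * N) * (1 / 4 * N) := by ring
        _ ≤ (4 * kap p ^ (2 * s) * α) * (1 / 4 * N) := by gcongr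
        _ ≤ _ := by gcongr
    linarith
  rw [← sum_fiberwise_eq_sum_filter]
  refine (sum_le_sum key).trans ?_
  rw [← mul_sum, sum_add_distrib, ← mul_sum, ← ex_sum, ← ex_sum]
  have i0 := ex_infl_restrict h0 h1 J f
  have i1 : ex p (fun z => ∑ T ∈ 𝒢, if c T z ^ 2 < β then c T z ^ 2 else 0) ≤
      ex p (fun z => 3 * ε * infl p fun y => f (J.piecewise y z)) := by
    refine ex_mono h0.le h1.le fun z => le_trans ?_
      (friedgut h0 h1 (fun y => hf _) hm hε hβ0.le (by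
        rw [← hMdef, hβ, inv_mul_cancel₀ (by positivity)]))
    refine sum_le_sum_of_subset_of_nonneg (fun T hT => ?_) fun T _ _ => by positivity
    exact mem_filter.2 ⟨mem_univ _, h𝒢 T hT⟩
  have i2 : ex p (fun z => ∑ T ∈ 𝒢, c T z ^ 2) ≤
      ex p (fun z => infl p fun y => f (J.piecewise y z)) := by
    refine ex_mono h0.le h1.le fun z => ?_
    rw [infl_eq h0 h1]
    refine le_trans (sum_le_sum fun T hT => ?_)
      (sum_le_sum_of_subset_of_nonneg (subset_univ 𝒢) fun T _ _ => by positivity)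
    refine le_mul_of_one_le_left (sq_nonneg _) ?_
    rw [h𝒢 T hT]; exact_mod_cast hm
  rw [ex_const_mul] at i1
  have i3 := mul_le_mul_of_nonneg_left (i2.trans i0) hε.le
  have i4 := mul_le_mul_of_nonneg_left i0 (show 0 ≤ 3 * ε by positivity)
  linarith

omit h0 h1 in
theorem ex_inter_eq (ρ : ℝ) {S T : Finset ι} (hT : T ⊆ S) :
    ex ρ (fun ω => if S ∩ univ.filter (fun i => ω i = true) = T then 1 else 0) =
      ρ ^ #T * (1 - ρ) ^ (#S - #T) := by
  have e : ∀ ω : ι → Bool, (if S ∩ univ.filter (fun i => ω i = true) = T then (1 : ℝ) else 0) =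
      ∏ i ∈ S, if (ω i = true ↔ i ∈ T) then 1 else 0 := by
    intro ω
    rw [prod_boole]
    congr 1
    simp only [Finset.ext_iff, mem_inter, mem_filter, mem_univ, true_and, eq_iff_iff]
    constructor
    · intro h i hi; rw [← h i]; simp [hi]
    · intro h i
      by_cases hi : i ∈ S
      · simp [hi, h i hi]
      · simp only [hi, false_and, false_iff]; exact fun h => hi (hT h)
  rw [ex_congr e, ex_prod_mem S fun i b => if (b = true ↔ i ∈ T) then 1 else 0,
    ← prod_inter_mul_prod_sdiff S T, inter_eq_right.2 hT, ← card_sdiff_of_subset hT,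
    ← prod_const, ← prod_const]
  congr 1
  · exact prod_congr rfl fun i hi => by simp [hi]
  · exact prod_congr rfl fun i hi => by simp [(mem_sdiff.1 hi).2]

theorem level_weight_le {f : (ι → Bool) → ℝ} (hf : ∀ x, f x = 0 ∨ f x = 1) {s m : ℕ}
    (hm : 1 ≤ m) (𝒢 : Finset (Finset ι)) (h𝒢 : ∀ T ∈ 𝒢, #T = m) {ε α : ℝ} (hε : 0 < ε)
    (hα : ∀ T ∈ 𝒢, ∑ S ∈ univ.filter (fun S : Finset ι => #S = s ∧ T ⊆ S), hat p f S ^ 2 ≤ α)
    (hnum : 4 * kap p ^ (2 * s) * α * (kap p ^ (2 * m) / (p * (1 - p) * ε ^ 5)) ^ m ≤ ε ^ 3)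
    {ρ P : ℝ} (hρ0 : 0 ≤ ρ) (hρ1 : ρ ≤ 1)
    (hP : ∀ S : Finset ι, #S = s → P ≤ #(𝒢.filter (· ⊆ S)) * (ρ ^ m * (1 - ρ) ^ (s - m))) :
    P * ∑ S ∈ univ.filter (fun S : Finset ι => #S = s), hat p f S ^ 2 ≤ 8 * ε * infl p f := by
  have a1 := ex_mono hρ0 hρ1 fun ω : ι → Bool =>
    restrict_le h0 h1 hf (univ.filter fun i => ω i = true) hm 𝒢 h𝒢 hε hα hnum
  rw [ex_const] at a1
  refine le_trans ?_ a1
  simp only [sum_filter (s := univ.filter fun S : Finset ι => #S = s)]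
  rw [ex_sum, mul_sum]
  refine sum_le_sum fun S hS => ?_
  have hs := (mem_filter.1 hS).2
  have a2 : ∀ ω : ι → Bool, (∑ T ∈ 𝒢.filter (· ⊆ S),
      if S ∩ univ.filter (fun i => ω i = true) = T then (1 : ℝ) else 0) * hat p f S ^ 2 ≤
      if S ∩ univ.filter (fun i => ω i = true) ∈ 𝒢 then hat p f S ^ 2 else 0 := by
    intro ω
    rw [sum_ite_eq]
    simp [mem_filter]
  refine le_trans ?_ (ex_mono hρ0 hρ1 a2)
  rw [ex_mul_const, ex_sum]
  refine mul_le_mul_of_nonneg_right ((hP S hs).trans (le_of_eq ?_)) (sq_nonneg _)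
  rw [← nsmul_eq_mul, ← sum_const]
  refine sum_congr rfl fun T hT => ?_
  rw [ex_inter_eq ρ (mem_filter.1 hT).2, hs, h𝒢 T (mem_filter.1 hT).1]

end pos

end Crest.Agent.R56
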