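import Crest.Agent.R56.Core

/-! Russo's formula and the resulting bound on the threshold interval. -/

set_option autoImplicit false
set_option linter.unusedSectionVars false
open Finset Function Crest.FinProb Real

namespace Crest.Agent.R56

variable {ι : Type*} [Fintype ι] [DecidableEq ι]

theorem bernoulliProb_eq (p : ℝ) (E : Set (ι → Bool)) (F : (ι → Bool) → ℝ)
    (h : ∀ x, (x ∈ E → F x = 1) ∧ (x ∉ E → F x = 0)) : bernoulliProb p E = ex p F := by
  rw [bernoulliProb, ex, sum_filter]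
  refine sum_congr rfl fun x _ => ?_
  split_ifs with hx
  · rw [(h x).1 hx, mul_one]
  · rw [(h x).2 hx, mul_zero]

theorem continuous_ex (f : (ι → Bool) → ℝ) : Continuous fun t => ex t f := by
  refine continuous_finsetSum _ fun x _ => Continuous.mul (continuous_finsetProd _ fun i _ => ?_)
    continuous_const
  split_ifs <;> fun_prop

theorem russo (f : (ι → Bool) → ℝ) {t : ℝ} (h0 : 0 < t) (h1 : t < 1) :
    HasDerivAt (fun t => ex t f) (∑ j, ex t (Dd j f)) t := by
  have hσ := sg_pos h0 h1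
  have hσ2 := sg_sq h0 h1
  have a1 : ∀ x : ι → Bool, HasDerivAt (fun t => bernoulliWeight t x * f x)
      ((∑ i, (∏ j ∈ univ.erase i, if x j then t else 1 - t) • (if x i then (1 : ℝ) else -1)) * f x)
      t := by
    intro x
    refine HasDerivAt.mul_const (HasDerivAt.fun_finsetProd
      (f := fun i t => if x i then t else 1 - t) fun i _ => ?_) _
    split_ifs
    · exact hasDerivAt_id t
    · exact (hasDerivAt_id t).const_sub 1
  refine (HasDerivAt.fun_sum fun x (_ : x ∈ univ) => a1 x).congr_deriv (Eq.symm ?_)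
  simp only [sum_mul]
  rw [sum_comm]
  refine sum_congr rfl fun j _ => ?_
  have a2 := hat_insert h0 h1 f (notMem_empty j)
  rw [hat_empty] at a2
  refine mul_left_cancel₀ hσ.ne' ?_
  rw [← a2, hat, ex, mul_sum]
  refine sum_congr rfl fun x _ => ?_
  rw [bernoulliWeight, ← mul_prod_erase _ _ (mem_univ j), chi_insert (notMem_empty j)]
  simp only [chi, prod_empty, ph, smul_eq_mul]
  split_ifs <;> field_simp <;> rw [hσ2] <;> ring

theorem threshold {f : (ι → Bool) → ℝ} (hf : ∀ x, f x = 0 ∨ f x = 1)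
    (hD : ∀ j x, 0 ≤ Dd j f x) {K : ℝ} (hK : 0 < K)
    (H : ∀ t, 0 < t → t < 1 → K * (ex t f * (1 - ex t f)) ≤ ∑ j, ex t fun x => Dd j f x ^ 2)
    {ε p q : ℝ} (hε0 : 0 < ε) (hε : ε < 1 / 2) (hp0 : 0 ≤ p) (hq1 : q ≤ 1) (hp : ε ≤ ex p f)
    (hq : p + 4 / K * log (1 / (2 * ε)) ≤ q) : 1 - ε ≤ ex q f := by
  have hlog : 0 ≤ log (1 / (2 * ε)) := log_nonneg ((one_le_div (by positivity)).2 (by linarith))
  have hpq : p ≤ q := le_trans (le_add_of_nonneg_right (by positivity)) hq
  have hsq : ∀ j x, Dd j f x ^ 2 = Dd j f x := by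
    intro j x
    have := hD j x
    rcases hf (update x j true) with a | a <;> rcases hf (update x j false) with b | b <;>
      simp only [Dd, a, b] at this ⊢ <;> linarith
  simp only [hsq] at H
  set μ : ℝ → ℝ := fun t => ex t f with hμ
  set μ' : ℝ → ℝ := fun t => ∑ j, ex t (Dd j f) with hμ'
  have hin : ∀ t ∈ interior (Set.Icc p q), 0 < t ∧ t < 1 := by
    intro t ht
    rw [interior_Icc] at ht
    exact ⟨by linarith [ht.1], by linarith [ht.2]⟩
  have hder : ∀ t ∈ interior (Set.Icc p q), HasDerivAt μ (μ' t) t := fun t ht =>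
    russo f (hin t ht).1 (hin t ht).2
  have hmono : MonotoneOn μ (Set.Icc p q) :=
    monotoneOn_of_hasDerivWithinAt_nonneg (convex_Icc p q) (continuous_ex f).continuousOn
      (fun t ht => (hder t ht).hasDerivWithinAt) fun t ht =>
      sum_nonneg fun j _ => ex_nonneg (hin t ht).1.le (hin t ht).2.le (hD j)
  have hpos : ∀ t ∈ Set.Icc p q, 0 < μ t := fun t ht =>
    hε0.trans_le (hp.trans (hmono ⟨le_rfl, hpq⟩ ht ht.1))
  have hanti : AntitoneOn (fun t => ((μ t)⁻¹ - 1) * exp (K * t)) (Set.Icc p q) := by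
    refine antitoneOn_of_hasDerivWithinAt_nonpos (convex_Icc p q)
      (f' := fun t => (-μ' t / μ t ^ 2) * exp (K * t) + ((μ t)⁻¹ - 1) * (exp (K * t) * (K * 1)))
      ?_ (fun t ht => ?_) fun t ht => ?_
    · refine ContinuousOn.mul (ContinuousOn.sub (ContinuousOn.inv₀ (continuous_ex f).continuousOn
        fun t ht => (hpos t ht).ne') continuousOn_const) (by fun_prop)
    · exact ((((hder t ht).inv (hpos t (interior_subset ht)).ne').sub_const 1).mul
        ((hasDerivAt_id t).const_mul K).exp).hasDerivWithinAt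
    · have a1 := hpos t (interior_subset ht)
      have a2 : K * (μ t * (1 - μ t)) ≤ μ' t := H t (hin t ht).1 (hin t ht).2
      have e : (-μ' t / μ t ^ 2) * exp (K * t) + ((μ t)⁻¹ - 1) * (exp (K * t) * (K * 1)) =
          exp (K * t) / μ t ^ 2 * (K * (μ t * (1 - μ t)) - μ' t) := by field_simp; ring
      rw [e]
      exact mul_nonpos_of_nonneg_of_nonpos (by positivity) (by linarith)
  have h1 : ((μ q)⁻¹ - 1) * exp (K * q) ≤ ((μ p)⁻¹ - 1) * exp (K * p) :=
    hanti ⟨le_rfl, hpq⟩ ⟨hpq, le_rfl⟩ hpq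
  have h2 : (μ p)⁻¹ ≤ ε⁻¹ := inv_anti₀ hε0 hp
  have h3 : exp (K * p) ≤ (2 * ε) ^ 4 * exp (K * q) := by
    have a1 : K * p + 4 * log (1 / (2 * ε)) ≤ K * q := by
      have := mul_le_mul_of_nonneg_left hq hK.le
      rw [mul_add, ← mul_assoc, mul_div_cancel₀ _ hK.ne'] at this
      exact this
    have a2 := exp_le_exp.2 a1
    rw [exp_add, show (4 : ℝ) = (4 : ℕ) by norm_num, exp_nat_mul, exp_log (by positivity),
      div_pow, one_pow, mul_one_div, div_le_iff₀' (by positivity)] at a2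
    exact a2
  have h4 : 1 ≤ ε⁻¹ := (one_le_inv₀ hε0).2 (by linarith)
  have h5 : (μ q)⁻¹ - 1 ≤ (ε⁻¹ - 1) * (2 * ε) ^ 4 := by
    refine le_of_mul_le_mul_right (h1.trans ?_) (exp_pos (K * q))
    rw [mul_assoc]
    exact (mul_le_mul_of_nonneg_right (by linarith) (exp_pos _).le).trans
      (mul_le_mul_of_nonneg_left h3 (by linarith))
  have h6 := hpos q ⟨hpq, le_rfl⟩
  have h7 : (ε⁻¹ - 1) * (2 * ε) ^ 4 ≤ (1 - ε)⁻¹ - 1 := by
    have a1 : 0 < 1 - ε := by linarith
    have a2 : (ε⁻¹ - 1) * (2 * ε) ^ 4 = (4 * ε * (1 - ε)) ^ 2 * (ε / (1 - ε)) := by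
      field_simp; ring
    have a3 : (1 - ε)⁻¹ - 1 = ε / (1 - ε) := by field_simp; ring
    rw [a2, a3]
    refine mul_le_of_le_one_left (by positivity) (pow_le_one₀ (by positivity) ?_)
    nlinarith [sq_nonneg (2 * ε - 1)]
  exact (inv_le_inv₀ h6 (by linarith)).1 (by linarith)

end Crest.Agent.R56
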